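import Vale.Agent.P192.R2.H360.R.Defs2
import Vale.Agent.P192.H593.Wob

/-! Machines over a group: the theorem from the bound of the displacement. -/

namespace Vale.Agent.P192.R2.H360.R

open Vale.Agent.P192 Vale.Agent.P192.H437 Vale.Agent.P192.H593 Vale.Agent.P192.R2.H577
open scoped Pointwise

theorem Mach.mono {H A Q : Type} [Group H] {T T' : Finset H} (h : T ⊆ T')
    {g : Cf H A Q → Cf H A Q} (hg : Mach T g) : Mach T' g := by
  obtain ⟨h1, h2, h3⟩ := hg
  refine ⟨fun z => h (h1 z), fun z p hp => h (h2 z p hp), ?_⟩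
  intro z z' hq ht
  obtain ⟨a1, a2, a3⟩ := h3 z z' hq (fun τ hτ => ht τ (h hτ))
  refine ⟨a1, a2, fun τ hτ => ?_⟩
  by_cases hτT : τ ∈ T
  · exact a3 τ hτT
  · have b1 : (g z).1 (z.2.1 * τ) = z.1 (z.2.1 * τ) := by
      by_contra hne
      have := h2 z _ hne
      rw [inv_mul_cancel_left] at this
      exact hτT this
    have b2 : (g z').1 (z'.2.1 * τ) = z'.1 (z'.2.1 * τ) := by
      by_contra hne
      have := h2 z' _ hne
      rw [inv_mul_cancel_left] at this
      exact hτT this
    rw [b1, b2]
    exact ht τ hτ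

/-- the tapes of the points of an orbit with bounded displacement -/
theorem orbit_tape {H A Q : Type} [Group H] [DecidableEq H] {G : Type} [Group G] {S : Set G}
    {T : Finset H} [MulAction G (Cf H A Q)] (hM : MA (H := H) (A := A) (Q := Q) G S T) {n : ℕ}
    (x : Cf H A Q) (hn : ∀ y ∈ MulAction.orbit G x, x.2.1⁻¹ * y.2.1 ∈ T ^ n) (g : G) :
    ∀ z ∈ MulAction.orbit G x, ∀ p, (g • z).1 p ≠ z.1 p → x.2.1⁻¹ * p ∈ T ^ (n + 1) := by
  have hg : g ∈ Subgroup.closure S := by rw [hM.gen]; trivial
  induction hg using Subgroup.closure_induction with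
  | mem s hs =>
      intro z hz p hp
      have h1 := (hM.mach s (Or.inl hs)).2.1 z p hp
      have h2 := hn z hz
      have h3 : x.2.1⁻¹ * p = (x.2.1⁻¹ * z.2.1) * (z.2.1⁻¹ * p) := by group
      rw [h3, pow_succ]
      exact Finset.mul_mem_mul h2 h1
  | one =>
      intro z _ p hp
      rw [one_smul] at hp
      exact absurd rfl hp
  | mul a b _ _ iha ihb =>
      intro z hz p hp
      by_cases hb : (b • z).1 p = z.1 p
      · refine iha (b • z) ?_ p ?_
        · rw [MulAction.orbit_eq_iff.2 hz |>.symm]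
          exact MulAction.mem_orbit _ _
        · rw [smul_smul, hb]
          exact hp
      · exact ihb z hz p hb
  | inv a _ iha =>
      intro z hz p hp
      refine iha (a⁻¹ • z) ?_ p ?_
      · rw [MulAction.orbit_eq_iff.2 hz |>.symm]
        exact MulAction.mem_orbit _ _
      · rw [smul_inv_smul]
        exact fun h => hp h.symm

theorem r10 : R10 := by
  classical
  intro hE9 H A Q _ _ _ _ _
  constructor
  · intro hH G _ _ hG ρ hρ
    obtain ⟨m, φ, hφ, -⟩ := ‹Group.IsFinitelyPresented G›.out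
    choose T0 hT0 using hρ
    let S : Set G := Set.range fun i : Fin m => φ (FreeGroup.of i)
    have hSfin : S.Finite := Set.finite_range _
    have hSgen : Subgroup.closure S = ⊤ := by
      rw [eq_top_iff]
      intro g _
      obtain ⟨w, rfl⟩ := hφ g
      have h1 : w ∈ Subgroup.closure (Set.range (FreeGroup.of : Fin m → FreeGroup (Fin m))) := by
        rw [FreeGroup.closure_range_of]; trivial
      have h2 : φ w ∈ (Subgroup.closure (Set.range (FreeGroup.of : Fin m → FreeGroup (Fin m)))).map φ :=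
        Subgroup.mem_map_of_mem _ h1
      rw [MonoidHom.map_closure] at h2
      refine Subgroup.closure_mono ?_ h2
      rintro _ ⟨_, ⟨i, rfl⟩, rfl⟩
      exact ⟨i, rfl⟩
    let U : Finset H := hSfin.toFinset.biUnion fun s => T0 s ∪ T0 s⁻¹
    let T : Finset H := insert 1 (U ∪ U.image fun τ => τ⁻¹)
    letI act : MulAction G (Cf H A Q) := MulAction.compHom (Cf H A Q) ρ
    have hsm : ∀ (g : G) (z : Cf H A Q), g • z = ρ g z := fun g z => rfl
    have hMA : MA (H := H) (A := A) (Q := Q) G S T := by
      refine ⟨Finset.mem_insert_self _ _, ?_, hSfin, hSgen, ?_⟩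
      · intro τ hτ
        rcases Finset.mem_insert.1 hτ with rfl | hτ
        · rw [inv_one]; exact Finset.mem_insert_self _ _
        · refine Finset.mem_insert_of_mem ?_
          rcases Finset.mem_union.1 hτ with hτ | hτ
          · exact Finset.mem_union_right _ (Finset.mem_image_of_mem _ hτ)
          · obtain ⟨σ, hσ, rfl⟩ := Finset.mem_image.1 hτ
            rw [inv_inv]
            exact Finset.mem_union_left _ hσ
      · intro s hs
        have hsub : T0 s ⊆ T := by
          intro τ hτ
          refine Finset.mem_insert_of_mem (Finset.mem_union_left _ ?_)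
          rcases hs with hs | hs
          · exact Finset.mem_biUnion.2 ⟨s, hSfin.mem_toFinset.2 hs, Finset.mem_union_left _ hτ⟩
          · refine Finset.mem_biUnion.2 ⟨s⁻¹, hSfin.mem_toFinset.2 hs, Finset.mem_union_right _ ?_⟩
            rw [inv_inv]; exact hτ
        exact Mach.mono hsub (hT0 s)
    obtain ⟨n, hn⟩ := hE9 H hH A Q G hG S T hMA
    let F : Type := (T ^ n : Finset H) × Q × ((T ^ (n + 1) : Finset H) → A)
    have horb : ∀ x : Cf H A Q, (MulAction.orbit G x).encard ≤ (Nat.card F : ℕ) := by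
      intro x
      let f : MulAction.orbit G x → F := fun y =>
        (⟨x.2.1⁻¹ * y.1.2.1, hn x y.1 y.2⟩, y.1.2.2, fun τ => y.1.1 (x.2.1 * τ.1))
      have hf : Function.Injective f := by
        intro y y' h
        have e1 : x.2.1⁻¹ * y.1.2.1 = x.2.1⁻¹ * y'.1.2.1 := congrArg (fun w : F => (w.1 : H)) h
        have e2 : y.1.2.2 = y'.1.2.2 := congrArg (fun w : F => w.2.1) h
        have e3 : ∀ τ : (T ^ (n + 1) : Finset H), y.1.1 (x.2.1 * τ.1) = y'.1.1 (x.2.1 * τ.1) :=
          fun τ => congrFun (congrArg (fun w : F => w.2.2) h) τ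
        have e4 : ∀ y : MulAction.orbit G x, ∀ p, x.2.1⁻¹ * p ∉ T ^ (n + 1) → y.1.1 p = x.1 p := by
          rintro ⟨_, g, rfl⟩ p hp
          by_contra hne
          exact hp (orbit_tape hMA x (hn x) g x (MulAction.mem_orbit_self x) p hne)
        apply Subtype.ext
        apply Prod.ext
        · funext p
          by_cases hp : x.2.1⁻¹ * p ∈ T ^ (n + 1)
          · have := e3 ⟨_, hp⟩
            simpa [mul_inv_cancel_left] using this
          · rw [e4 y p hp, e4 y' p hp]
        · exact Prod.ext (mul_left_cancel e1) e2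
      have h1 : (MulAction.orbit G x).encard = ENat.card (MulAction.orbit G x) := rfl
      rw [h1]
      refine (ENat.card_le_card_of_injective hf).trans (le_of_eq ?_)
      exact ENat.card_eq_coe_natCard F
    obtain ⟨N, h1, h2, h3⟩ := exists_kernel.{0, 0} G (Nat.card F)
    refine range_finite_of_kernel ρ N h2 fun g hg => ?_
    ext1 y
    exact h3 (Cf H A Q) y (horb y) g hg
  · intro h Γ _ hfp htor f
    haveI := hfp
    obtain ⟨a0⟩ := ‹Nonempty A›
    obtain ⟨q0⟩ := ‹Nonempty Q›
    let ρ : Γ →* Equiv.Perm ((H → A) × H × Q) :=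
      { toFun := fun g =>
          { toFun := fun z => (z.1, z.2.1 * (f g)⁻¹, z.2.2)
            invFun := fun z => (z.1, z.2.1 * f g, z.2.2)
            left_inv := fun z => by simp
            right_inv := fun z => by simp }
        map_one' := by ext z <;> simp
        map_mul' := fun g g' => by ext z <;> simp [mul_assoc] }
    have hfin := h Γ htor ρ (fun g => ⟨{(f g)⁻¹}, fun z => by
        show z.2.1⁻¹ * (z.2.1 * (f g)⁻¹) ∈ _
        rw [inv_mul_cancel_left]; exact Finset.mem_singleton_self _,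
      fun z p hp => absurd rfl hp, fun z z' hq ht => ⟨by
        show z.2.1⁻¹ * (z.2.1 * (f g)⁻¹) = z'.2.1⁻¹ * (z'.2.1 * (f g)⁻¹)
        rw [inv_mul_cancel_left, inv_mul_cancel_left], hq, ht⟩⟩)
    have hfin' : ((ρ.range : Subgroup _) : Set (Equiv.Perm ((H → A) × H × Q))).Finite := hfin
    let φ : Equiv.Perm ((H → A) × H × Q) → H := fun σ => ((σ (fun _ => a0, 1, q0)).2.1)⁻¹
    have h4 : ((f.range : Subgroup H) : Set H) ⊆ φ '' (ρ.range : Set _) := by
      rintro _ ⟨g, rfl⟩
      refine ⟨ρ g, ⟨g, rfl⟩, ?_⟩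
      show ((1 * (f g)⁻¹ : H))⁻¹ = f g
      rw [one_mul, inv_inv]
    exact (hfin'.image φ).subset h4

end Vale.Agent.P192.R2.H360.R
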