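import Vale.Agent.P192.R2.H360.R.Defs

/-! Machines over a group: boundedly many separated sites with different symbols. -/

namespace Vale.Agent.P192.R2.H360.R

open Vale.Agent.P192 Vale.Agent.P192.H437 Vale.Agent.P192.H593 Vale.Agent.P192.R2.H577
open scoped Pointwise

universe u v

theorem r4 : R2.{u, v} → R3.{u, v} → R4.{u, v} := by
  intro h2 h3 G _ _ hG S hS hgen H A Q _ _ _ _ T
  obtain ⟨K, hK⟩ := h3 G hG S hS hgen H A Q T
  obtain ⟨M, hM⟩ := h2 G hG S hgen K
  refine ⟨M, ?_⟩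
  intro X _ _ hd tp st hloc x y P hP hsep
  have hD := fun p : P => hK X hd tp st hloc x y p (hP p p.2)
  choose D hx hy hcard hT hhop using hD
  let e := P.equivFin.symm
  refine hM X x y P.card (fun i => D (e i)) (fun i => Or.inl ⟨hx _, hy _⟩) (fun i => hcard _) ?_
  intro i j hij
  rw [Set.disjoint_left]
  intro z hzi hzj
  have hne : ((e i : P) : H) ≠ ((e j : P) : H) := fun h => hij (e.injective (Subtype.ext h))
  refine hsep _ (e i).2 _ (e j).2 hne ?_
  have h1 := hloc.inv _ (hT _ z hzi)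
  have h2' := hT _ z hzj
  have h4 : ((e i : P) : H)⁻¹ * ((e j : P) : H) =
      ((hd z)⁻¹ * ((e i : P) : H))⁻¹ * ((hd z)⁻¹ * ((e j : P) : H)) := by group
  rw [h4, sq]
  exact Finset.mul_mem_mul h1 h2'

end Vale.Agent.P192.R2.H360.R
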